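import Vale.Agent.P207.H686.ZD
import Vale.Agent.P207.H281.PD
import Vale.Agent.P207.H242.T2

/-!
# P207, line N4: bridge between the zoom data (forms) and the product formula data (operators)

`W = BF E` = all bilinear forms on `E`, `D : ZD E (BF E) X`, `Nh v x : E →L E` the tensor as an
operator, `D.N v x (fo σ) = trL E (Nh v x ∘ σ)`. From Lemma Q in the form of the S-bundle (centre of
a disc, distance to `Sm v`) and `Sm v` = alternating forms we get Lemma Q in the form `LQ` of the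
product formula row, with a constant independent of the base point.
-/

set_option linter.all false
set_option maxSynthPendingDepth 3

open Set Filter Topology Metric
open scoped ContDiff RealInnerProductSpace

noncomputable section

namespace Vale.Agent.P207.H478

open Vale.Agent.P207.H686 Vale.Agent.P207.H281

/-- all bilinear forms -/
abbrev BF (E : Type*) [NormedAddCommGroup E] [NormedSpace ℝ E] : Type _ := E →L[ℝ] E →L[ℝ] ℝ

/-- the form is alternating -/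
def IsAlt {E : Type*} [NormedAddCommGroup E] [NormedSpace ℝ E] (s : BF E) : Prop :=
  ∀ u w, s u w = - s w u

section LemQ

variable {E W X : Type*} [NormedAddCommGroup E] [NormedSpace ℝ E] [NormedAddCommGroup W]
  [NormedSpace ℝ W]

/-- **Lemma Q** (387), at the centre of the disc of radius `r` -/
def LemQ (D : ZD E W X) (r : ℝ) : Prop :=
  ∀ e : ℝ, 0 < e → ∀ M : ℕ → ℝ, ∃ C : ℝ, ∀ (v : X) (σ : E → W) (F : E → ℝ) (δ : ℝ), SmB M r σ → SmB M r F →
    0 < δ → δ ≤ 1 → (∀ u ∈ ball (0 : E) r, |D.N v u (σ u) - F u| ≤ δ) →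
    ∃ s ∈ D.Sm v, ‖σ 0 - s‖ ≤ C * δ ^ (1 - e)

end LemQ

/-- composition with an affine map -/
theorem SmB.comp_affine {E F G : Type*} [NormedAddCommGroup E] [NormedSpace ℝ E]
    [NormedAddCommGroup F] [NormedSpace ℝ F] [NormedAddCommGroup G] [NormedSpace ℝ G]
    {M : ℕ → ℝ} {R r K : ℝ} {f : E → F} (hf : SmB M R f) (p : E) (A : G →L[ℝ] E) (hA : ‖A‖ ≤ K)
    (hr : ∀ y ∈ ball (0 : G) r, p + A y ∈ ball (0 : E) R) :
    SmB (fun k => M k * K ^ k) r (fun y => f (p + A y)) := by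
  have hK : 0 ≤ K := (norm_nonneg _).trans hA
  -- translate first
  set s : Set E := {z | p + z ∈ ball (0 : E) R} with hs
  have hso : IsOpen s := isOpen_ball.preimage (continuous_const.add continuous_id)
  have hg : ContDiffOn ℝ ∞ (fun z => f (p + z)) s :=
    hf.1.comp (contDiff_const.add contDiff_id).contDiffOn (fun z hz => hz)
  have hgk : ∀ k, ∀ z ∈ s, iteratedFDeriv ℝ k (fun z => f (p + z)) z
      = iteratedFDeriv ℝ k f (p + z) := by
    intro k z hz
    exact congrFun (iteratedFDeriv_comp_add_left' k p) z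
  refine ⟨hg.comp A.contDiff.contDiffOn (fun y hy => hr y hy), fun k y hy => ?_⟩
  have h1 := H242.T2.norm_iter_comp_right_le hso hg A (x := y) (hr y hy) k
  refine h1.trans ?_
  rw [hgk k _ (hr y hy)]
  have h2 := hf.2 k _ (hr y hy)
  have h3 : ‖A‖ ^ k ≤ K ^ k := pow_le_pow_left₀ (norm_nonneg _) hA k
  have h4 : (0 : ℝ) ≤ M k := (norm_nonneg _).trans h2
  exact mul_le_mul h2 h3 (pow_nonneg (norm_nonneg _) _) h4

variable {E : Type*} [NormedAddCommGroup E] [InnerProductSpace ℝ E]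

/-- the form `⟪σ ·, ·⟫` of an operator -/
def fo : (E →L[ℝ] E) →L[ℝ] BF E :=
  ContinuousLinearMap.compL ℝ E E (E →L[ℝ] ℝ) (innerSL ℝ)

theorem fo_apply (σ : E →L[ℝ] E) (u w : E) : fo σ u w = ⟪σ u, w⟫ := by
  show (innerSL ℝ) (σ u) w = ⟪σ u, w⟫
  rfl

theorem norm_fo_le : ‖(fo : (E →L[ℝ] E) →L[ℝ] BF E)‖ ≤ 1 := by
  refine ContinuousLinearMap.opNorm_le_bound _ zero_le_one fun σ => ?_
  rw [one_mul]
  refine ContinuousLinearMap.opNorm_le_bound₂ _ (norm_nonneg _) fun u w => ?_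
  rw [fo_apply]
  exact (norm_inner_le_norm _ _).trans
    (mul_le_mul_of_nonneg_right (σ.le_opNorm u) (norm_nonneg _))

/-- a symmetric operator is at distance at least its norm from the alternating forms -/
theorem norm_le_of_alt {σ : E →L[ℝ] E} (hσ : ∀ u v, ⟪σ u, v⟫ = ⟪u, σ v⟫) {s : BF E}
    (hs : IsAlt s) : ‖σ‖ ≤ ‖fo σ - s‖ := by
  set c := ‖fo σ - s‖ with hc
  have h1 : ∀ u w : E, |⟪σ u, w⟫| ≤ c * ‖u‖ * ‖w‖ := by
    intro u w
    have h2 : |(fo σ - s) u w| ≤ c * ‖u‖ * ‖w‖ := by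
      have := (fo σ - s).le_opNorm₂ u w
      simpa [Real.norm_eq_abs] using this
    have h3 : |(fo σ - s) w u| ≤ c * ‖u‖ * ‖w‖ := by
      have := (fo σ - s).le_opNorm₂ w u
      rw [Real.norm_eq_abs] at this
      calc _ ≤ _ := this
        _ = _ := by ring
    have h4 : ⟪σ u, w⟫ = ((fo σ - s) u w + (fo σ - s) w u) / 2 := by
      have h5 : (fo σ - s) u w = ⟪σ u, w⟫ - s u w := by
        rw [ContinuousLinearMap.sub_apply, ContinuousLinearMap.sub_apply, fo_apply]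
      have h6 : (fo σ - s) w u = ⟪σ w, u⟫ - s w u := by
        rw [ContinuousLinearMap.sub_apply, ContinuousLinearMap.sub_apply, fo_apply]
      rw [h5, h6, hσ w u, real_inner_comm, hs u w]
      ring
    rw [h4, abs_div, abs_two]
    have h7 := abs_add_le ((fo σ - s) u w) ((fo σ - s) w u)
    linarith
  refine ContinuousLinearMap.opNorm_le_bound _ (by positivity) fun u => ?_
  by_cases hu : σ u = 0
  · rw [hu, norm_zero]; positivity
  have h8 := h1 u (σ u)
  rw [real_inner_self_eq_norm_sq, abs_of_nonneg (by positivity)] at h8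
  have h9 : 0 < ‖σ u‖ := norm_pos_iff.2 hu
  nlinarith

variable {X : Type*} [FiniteDimensional ℝ E]

/-- **Lemma Q in the operator form**, `Sm v` alternating for all `v` -/
theorem lq_of {D : ZD E (BF E) X} {Nh : X → E → E →L[ℝ] E}
    (hN : ∀ v, ∀ x ∈ ball (0 : E) 1, ∀ σ : E →L[ℝ] E, D.N v x (fo σ) = trL E ((Nh v x).comp σ))
    (hbc : ∀ {v p R S v'}, D.BC v p R S v' → ∀ s, s ∈ D.Sm v ↔ S s ∈ D.Sm v')
    (hQ : ∀ r, 0 < r → r ≤ 1 → LemQ D r) (halt : ∀ v, ∀ s ∈ D.Sm v, IsAlt s) :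
    ∃ CQ : ℝ → ℝ → (ℕ → ℝ) → ℝ → ℝ, ∀ v, LQ (Nh v) CQ := by
  have key : ∀ (r R : ℝ) (M : ℕ → ℝ) (e : ℝ), ∃ C : ℝ, 1 / 2 ≤ r → r < R → R ≤ 1 → 0 < e → ∀ v,
      ∀ (σ : E → E →L[ℝ] E) (F : E → ℝ) (d : ℝ), SmB M R σ → SmB M R F →
      (∀ x ∈ ball (0 : E) R, ∀ u v, ⟪σ x u, v⟫ = ⟪u, σ x v⟫) → 0 < d → d ≤ 1 →
      (∀ x ∈ ball (0 : E) R, |trL E ((Nh v x).comp (σ x)) - F x| ≤ d) →
      ∀ x ∈ ball (0 : E) r, ‖σ x‖ ≤ C * d ^ (1 - e) := by
    intro r R M e
    by_cases hh : 1 / 2 ≤ r ∧ r < R ∧ R ≤ 1 ∧ 0 < e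
    swap
    · exact ⟨0, fun h1 h2 h3 h4 => absurd ⟨h1, h2, h3, h4⟩ hh⟩
    obtain ⟨h1, h2, h3, h4⟩ := hh
    have hK0 : 0 < D.Kb := lt_of_lt_of_le one_pos D.Kb1
    -- the radius of the small disc
    set r' : ℝ := (R - r) / D.Kb with hr'
    have hr'0 : 0 < r' := div_pos (by linarith) hK0
    have hr'1 : r' ≤ 1 := by
      rw [hr', div_le_one hK0]
      have := D.Kb1
      linarith
    -- the bounds of the new section
    set M1 : ℕ → ℝ := fun k => D.Kb * (1 * (M k * D.Kb ^ k)) with hM1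
    set M2 : ℕ → ℝ := fun k => M k * D.Kb ^ k +
      ∑ i ∈ Finset.range (k + 1), (k.choose i : ℝ) * D.M i * M1 (k - i) with hM2
    obtain ⟨C, hC⟩ := hQ r' hr'0 hr'1 e h4 (fun k => max (M1 k) (M2 k))
    refine ⟨D.Kb * C, fun _ _ _ _ v σ F d hσ hF hsym hd hd1 hb x hx => ?_⟩
    have hx1 : x ∈ ball (0 : E) 1 := ball_subset_ball (by linarith) hx
    have hxr : ‖x‖ < r := by simpa using hx
    obtain ⟨A, S, v', hBC⟩ := D.BC_ex v x hx1
    obtain ⟨hR1, hR2⟩ := D.BC_R hBC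
    obtain ⟨hS1, hS2⟩ := D.BC_S hBC
    obtain ⟨e', he'1, he'2, he'3⟩ := D.BC_N hBC
    set B : E →L[ℝ] E := (A.symm : E →L[ℝ] E) with hB
    have hBn : ‖B‖ ≤ D.Kb := ContinuousLinearMap.opNorm_le_bound _ hK0.le hR2
    have hBm : ∀ y ∈ ball (0 : E) r', x + B y ∈ ball (0 : E) R := by
      intro y hy
      rw [mem_ball_zero_iff] at hy ⊢
      have h5 : ‖B y‖ ≤ D.Kb * ‖y‖ := hR2 y
      have h6 : D.Kb * ‖y‖ < R - r := by
        rw [hr', lt_div_iff₀ hK0] at hy
        linarith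
      calc ‖x + B y‖ ≤ ‖x‖ + ‖B y‖ := norm_add_le _ _
        _ < R := by linarith
    have hBm1 : ∀ y ∈ ball (0 : E) r', x + B y ∈ ball (0 : E) 1 := fun y hy =>
      ball_subset_ball h3 (hBm y hy)
    have hy1 : ∀ y ∈ ball (0 : E) r', y ∈ ball (0 : E) 1 := fun y hy =>
      ball_subset_ball hr'1 hy
    -- the new section
    set σ' : E → BF E := fun y => S (fo (σ (x + B y))) with hσ'
    have hS1n : ‖((S : BF E →L[ℝ] BF E).comp (fo : (E →L[ℝ] E) →L[ℝ] BF E))‖ ≤ D.Kb := by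
      have h7 : ‖(S : BF E →L[ℝ] BF E)‖ ≤ D.Kb :=
        ContinuousLinearMap.opNorm_le_bound _ hK0.le hS1
      calc _ ≤ ‖(S : BF E →L[ℝ] BF E)‖ * ‖(fo : (E →L[ℝ] E) →L[ℝ] BF E)‖ :=
            ContinuousLinearMap.opNorm_comp_le _ _
        _ ≤ D.Kb * 1 := mul_le_mul h7 norm_fo_le (norm_nonneg _) hK0.le
        _ = D.Kb := mul_one _
    have hσc : SmB (fun k => M k * D.Kb ^ k) r' (fun y => σ (x + B y)) :=
      SmB.comp_affine hσ x B hBn hBm
    have hFc : SmB (fun k => M k * D.Kb ^ k) r' (fun y => F (x + B y)) :=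
      SmB.comp_affine hF x B hBn hBm
    have hMnn : ∀ k, 0 ≤ M k * D.Kb ^ k := fun k => hσc.M_nonneg hr'0 k
    have hσ'B : SmB M1 r' σ' := by
      refine (hσc.clm_comp ((S : BF E →L[ℝ] BF E).comp (fo : (E →L[ℝ] E) →L[ℝ] BF E))).mono_M
        fun k => ?_
      rw [hM1]
      simp only [one_mul]
      exact mul_le_mul_of_nonneg_right hS1n (hMnn k)
    have he'B : SmB D.M r' e' := by
      refine ⟨he'1.mono fun y hy => ⟨hy1 y hy, hBm1 y hy⟩, fun k y hy => ?_⟩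
      exact he'2 k y (hy1 y hy) (hBm1 y hy)
    set F' : E → ℝ := fun y => F (x + B y) + e' y (σ' y) with hF'
    have hF'B : SmB M2 r' F' := hFc.add (he'B.clm_apply hσ'B)
    have hdiff : ∀ y ∈ ball (0 : E) r', |D.N v' y (σ' y) - F' y| ≤ d := by
      intro y hy
      have h8 := he'3 y (hy1 y hy) (hBm1 y hy) (fo (σ (x + B y)))
      have h9 : D.N v' y (σ' y) - F' y
          = trL E ((Nh v (x + B y)).comp (σ (x + B y))) - F (x + B y) := by
        rw [hσ', hF']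
        simp only
        rw [h8]
        have h10 : D.N v (x + A.symm y) (fo (σ (x + B y)))
            = trL E ((Nh v (x + B y)).comp (σ (x + B y))) :=
          hN v (x + B y) (hBm1 y hy) _
        rw [h10]
        ring
      rw [h9]
      exact hb _ (hBm y hy)
    obtain ⟨s, hs, hs1⟩ := hC v' σ' F' d (hσ'B.mono_M fun k => le_max_left _ _)
      (hF'B.mono_M fun k => le_max_right _ _) hd hd1 hdiff
    have hs2 : S.symm s ∈ D.Sm v := by
      rw [hbc hBC, S.apply_symm_apply]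
      exact hs
    have hs3 : IsAlt (S.symm s) := halt v _ hs2
    have h11 := norm_le_of_alt (hsym x (ball_subset_ball h2.le hx)) hs3
    have h12 : fo (σ x) - S.symm s = S.symm (σ' 0 - s) := by
      have h13 : σ' 0 = S (fo (σ x)) := by
        rw [hσ']
        simp
      rw [h13, map_sub, S.symm_apply_apply]
    rw [h12] at h11
    calc ‖σ x‖ ≤ ‖S.symm (σ' 0 - s)‖ := h11
      _ ≤ D.Kb * ‖σ' 0 - s‖ := hS2 _
      _ ≤ D.Kb * (C * d ^ (1 - e)) := mul_le_mul_of_nonneg_left hs1 hK0.le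
      _ = D.Kb * C * d ^ (1 - e) := by ring
  choose CQ hCQ using key
  exact ⟨CQ, fun v r R M e h1 h2 h3 h4 σ F d hσ hF hs hd hd1 hb x hx =>
    hCQ r R M e h1 h2 h3 h4 v σ F d hσ hF hs hd hd1 hb x hx⟩

end Vale.Agent.P207.H478
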